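import Vale.Agent.H90.KTV.Defs

namespace Vale.Agent.H83

open Vale.Agent.H90 Finset

variable {R C : Type*} [Fintype R] [DecidableEq R] [Fintype C] [DecidableEq C]

/-- number of rows of `S` with a one in column `z` -/
def sS (S : Finset R) (G : R → C → Bool) (z : C) : ℕ := (S.filter (fun a => G a z = true)).card

omit [Fintype R] [Fintype C] in
lemma colSwap_self (S : Finset R) (x : C) (G : R → C → Bool) : colSwap S x x G = G := by
  funext a b
  simp [colSwap]

omit [Fintype R] [Fintype C] in
lemma colSwap_comm (S : Finset R) (x y : C) (G : R → C → Bool) :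
    colSwap S x y G = colSwap S y x G := by
  funext a b
  simp [colSwap, Equiv.swap_comm]

omit [Fintype R] [Fintype C] in
lemma colSwap_colSwap (S : Finset R) (x y : C) (G : R → C → Bool) :
    colSwap S x y (colSwap S x y G) = G := by
  funext a b
  by_cases ha : a ∈ S <;> simp [colSwap, ha]

omit [Fintype R] [Fintype C] in
lemma colSwap_conj (S : Finset R) (u v x y : C) (G : R → C → Bool) :
    colSwap S (Equiv.swap u v x) (Equiv.swap u v y) (colSwap S u v G)
      = colSwap S u v (colSwap S x y G) := by
  funext a b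
  by_cases ha : a ∈ S
  · simp only [colSwap, ha, if_true]
    congr 1
    rw [Equiv.swap_apply_apply]
    simp
  · simp [colSwap, ha]

omit [Fintype R] in
lemma rowSum_colSwap (S : Finset R) (x y : C) (G : R → C → Bool) (a : R) :
    rowSum (colSwap S x y G) a = rowSum G a := by
  unfold rowSum
  by_cases ha : a ∈ S
  · apply Finset.card_equiv (Equiv.swap x y)
    intro b
    simp [colSwap, ha]
  · simp [colSwap, ha]

omit [Fintype R] [Fintype C] in
lemma sS_colSwap (S : Finset R) (x y : C) (G : R → C → Bool) (z : C) :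
    sS S (colSwap S x y G) z = sS S G (Equiv.swap x y z) := by
  unfold sS
  congr 1
  apply Finset.filter_congr
  intro a ha
  simp [colSwap, ha]

omit [Fintype C] [DecidableEq C] in
lemma colSum_split (S : Finset R) (G : R → C → Bool) (b : C) :
    colSum G b = sS S G b + ((univ.filter (fun a => G a b = true)).filter (fun a => a ∉ S)).card := by
  unfold colSum sS
  rw [← Finset.card_filter_add_card_filter_not (s := univ.filter (fun a => G a b = true))
    (p := fun a => a ∈ S)]
  congr 2
  ext a
  simp [and_comm]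

omit [Fintype C] in
lemma colSum_colSwap (S : Finset R) (x y : C) (G : R → C → Bool) (b : C) :
    colSum (colSwap S x y G) b + sS S G b = colSum G b + sS S G (Equiv.swap x y b) := by
  rw [colSum_split S (colSwap S x y G) b, colSum_split S G b, sS_colSwap]
  have : (univ.filter (fun a => colSwap S x y G a b = true)).filter (fun a => a ∉ S)
      = (univ.filter (fun a => G a b = true)).filter (fun a => a ∉ S) := by
    ext a
    simp only [mem_filter, mem_univ, true_and]
    constructor
    · rintro ⟨h1, h2⟩
      refine ⟨?_, h2⟩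
      simpa [colSwap, h2] using h1
    · rintro ⟨h1, h2⟩
      refine ⟨?_, h2⟩
      simpa [colSwap, h2] using h1
  rw [this]
  ring

lemma sameMarg_colSwap_iff (S : Finset R) (x y : C) (G : R → C → Bool) :
    SameMarg G (colSwap S x y G) ↔ sS S G x = sS S G y := by
  constructor
  · intro h
    have h1 := colSum_colSwap S x y G x
    rw [← h.2 x, Equiv.swap_apply_left] at h1
    omega
  · intro h
    refine ⟨fun a => (rowSum_colSwap S x y G a).symm, fun b => ?_⟩
    have h1 := colSum_colSwap S x y G b
    have h2 : sS S G (Equiv.swap x y b) = sS S G b := by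
      by_cases hbx : b = x
      · rw [hbx, Equiv.swap_apply_left, h]
      · by_cases hby : b = y
        · rw [hby, Equiv.swap_apply_right, h]
        · rw [Equiv.swap_apply_of_ne_of_ne hbx hby]
    omega

theorem johnson_coupling {R C : Type*} [Fintype R] [DecidableEq R] [Fintype C] [DecidableEq C]
    (i j : R) (hij : i ≠ j) (f : (R → C → Bool) → ℝ) (L : ℝ)
    (hL : ∀ A x y, SameMarg A (colSwap {i, j} x y A) → |f A - f (colSwap {i, j} x y A)| ≤ L)
    (G : R → C → Bool) (u v : C) (h : SameMarg G (colSwap {i, j} u v G))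
    (hne : colSwap {i, j} u v G ≠ G) :
    |((Fintype.card C : ℝ) ^ 2 + 2) * (f G - f (colSwap {i, j} u v G))
        - (LJ i j f G - LJ i j f (colSwap {i, j} u v G))|
      ≤ ((Fintype.card C : ℝ) ^ 2 - 2) * L := by
  have huv : u ≠ v := by
    rintro rfl
    exact hne (colSwap_self _ _ _)
  have hs : sS {i, j} G u = sS {i, j} G v := (sameMarg_colSwap_iff _ u v G).mp h
  -- the condition is invariant under the conjugation
  have hF2 : ∀ x y, SameMarg (colSwap {i, j} u v G)
      (colSwap {i, j} u v (colSwap {i, j} x y G)) ↔ SameMarg G (colSwap {i, j} x y G) := by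
    intro x y
    rw [← colSwap_conj, sameMarg_colSwap_iff, sameMarg_colSwap_iff, sS_colSwap, sS_colSwap,
      Equiv.swap_apply_self, Equiv.swap_apply_self]
  have hF1 : ∀ x y, SameMarg G (colSwap {i, j} x y G) →
      SameMarg (colSwap {i, j} x y G) (colSwap {i, j} u v (colSwap {i, j} x y G)) := by
    intro x y hxy
    rw [sameMarg_colSwap_iff] at hxy ⊢
    rw [sS_colSwap, sS_colSwap]
    have key : ∀ z, sS {i, j} G (Equiv.swap x y z) = sS {i, j} G z := by
      intro z
      by_cases hzx : z = x
      · rw [hzx, Equiv.swap_apply_left, hxy]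
      · by_cases hzy : z = y
        · rw [hzy, Equiv.swap_apply_right, hxy]
        · rw [Equiv.swap_apply_of_ne_of_ne hzx hzy]
    rw [key u, key v]
    exact hs
  have hLJ' : LJ i j f (colSwap {i, j} u v G) = ∑ x, ∑ y,
      if SameMarg G (colSwap {i, j} x y G) then
        f (colSwap {i, j} u v G) - f (colSwap {i, j} u v (colSwap {i, j} x y G)) else 0 := by
    unfold LJ
    rw [← Equiv.sum_comp (Equiv.swap u v)]
    apply Finset.sum_congr rfl
    intro x _
    rw [← Equiv.sum_comp (Equiv.swap u v)]
    apply Finset.sum_congr rfl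
    intro y _
    rw [colSwap_conj]
    by_cases hD : SameMarg G (colSwap {i, j} x y G)
    · rw [if_pos hD, if_pos ((hF2 x y).mpr hD)]
    · rw [if_neg hD, if_neg (fun hh => hD ((hF2 x y).mp hh))]
  obtain ⟨Δ, hΔ⟩ : ∃ Δ : ℝ, Δ = f G - f (colSwap {i, j} u v G) := ⟨_, rfl⟩
  obtain ⟨g, hg⟩ : ∃ g : C × C → ℝ, g = fun p =>
      if SameMarg G (colSwap {i, j} p.1 p.2 G) then
        f (colSwap {i, j} p.1 p.2 G) - f (colSwap {i, j} u v (colSwap {i, j} p.1 p.2 G))
      else Δ := ⟨_, rfl⟩
  have hΔL : |Δ| ≤ L := by
    rw [hΔ]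
    exact hL G u v h
  have hgL : ∀ p, |g p| ≤ L := by
    intro p
    rw [hg]
    by_cases hD : SameMarg G (colSwap {i, j} p.1 p.2 G)
    · simp only [if_pos hD]
      exact hL _ u v (hF1 p.1 p.2 hD)
    · simp only [if_neg hD]
      exact hΔL
  have hmain : ((Fintype.card C : ℝ) ^ 2 + 2) * (f G - f (colSwap {i, j} u v G))
        - (LJ i j f G - LJ i j f (colSwap {i, j} u v G)) = 2 * Δ + ∑ p : C × C, g p := by
    rw [hLJ', ← hΔ, Fintype.sum_prod_type]
    unfold LJ
    have hc : ((Fintype.card C : ℝ) ^ 2) * Δ = ∑ _x : C, ∑ _y : C, Δ := by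
      simp only [Finset.sum_const, card_univ, nsmul_eq_mul]
      ring
    have hterm : ∑ x : C, ∑ y : C, g (x, y) = ∑ x : C, ∑ y : C, Δ
        - (∑ x : C, ∑ y : C,
            (if SameMarg G (colSwap {i, j} x y G) then f G - f (colSwap {i, j} x y G) else 0)
          - ∑ x : C, ∑ y : C,
            (if SameMarg G (colSwap {i, j} x y G) then
              f (colSwap {i, j} u v G) - f (colSwap {i, j} u v (colSwap {i, j} x y G))
            else 0)) := by
      simp only [← Finset.sum_sub_distrib]
      apply Finset.sum_congr rfl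
      intro x _
      apply Finset.sum_congr rfl
      intro y _
      rw [hg]
      by_cases hD : SameMarg G (colSwap {i, j} x y G)
      · simp only [if_pos hD]
        rw [hΔ]
        ring
      · simp only [if_neg hD]
        ring
    rw [hterm, ← hc]
    ring
  -- the two special pairs
  have hguv : g (u, v) = -Δ := by
    rw [hg]
    simp only [if_pos h]
    rw [colSwap_colSwap, hΔ]
    ring
  have hgvu : g (v, u) = -Δ := by
    rw [hg]
    simp only
    rw [colSwap_comm {i, j} v u G, if_pos h, colSwap_colSwap, hΔ]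
    ring
  have hmem1 : (u, v) ∈ (univ : Finset (C × C)) := mem_univ _
  have hmem2 : (v, u) ∈ (univ : Finset (C × C)).erase (u, v) := by
    rw [mem_erase]
    refine ⟨?_, mem_univ _⟩
    intro e
    exact huv (congrArg Prod.snd e)
  have hsum : ∑ p : C × C, g p
      = g (u, v) + (g (v, u) + ∑ p ∈ ((univ : Finset (C × C)).erase (u, v)).erase (v, u), g p) := by
    rw [Finset.add_sum_erase _ g hmem2, Finset.add_sum_erase _ g hmem1]
  have hcard : ((((univ : Finset (C × C)).erase (u, v)).erase (v, u)).card : ℝ) + 2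
      = (Fintype.card C : ℝ) ^ 2 := by
    have h1 := Finset.card_erase_add_one hmem2
    have h2 := Finset.card_erase_add_one hmem1
    rw [card_univ, Fintype.card_prod] at h2
    have h3 : (((univ : Finset (C × C)).erase (u, v)).erase (v, u)).card + 2
        = Fintype.card C * Fintype.card C := by omega
    have h4 := congrArg (fun n : ℕ => (n : ℝ)) h3
    simp only [Nat.cast_add, Nat.cast_mul, Nat.cast_ofNat] at h4
    rw [h4]
    ring
  rw [hmain, hsum, hguv, hgvu]
  have hbound : |∑ p ∈ ((univ : Finset (C × C)).erase (u, v)).erase (v, u), g p|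
      ≤ ((((univ : Finset (C × C)).erase (u, v)).erase (v, u)).card : ℝ) * L := by
    calc |∑ p ∈ ((univ : Finset (C × C)).erase (u, v)).erase (v, u), g p|
        ≤ ∑ p ∈ ((univ : Finset (C × C)).erase (u, v)).erase (v, u), |g p| :=
          Finset.abs_sum_le_sum_abs _ _
      _ ≤ ∑ _p ∈ ((univ : Finset (C × C)).erase (u, v)).erase (v, u), L :=
          Finset.sum_le_sum (fun p _ => hgL p)
      _ = _ := by rw [Finset.sum_const, nsmul_eq_mul]
  have e : 2 * Δ + (-Δ + (-Δ + ∑ p ∈ ((univ : Finset (C × C)).erase (u, v)).erase (v, u), g p))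
      = ∑ p ∈ ((univ : Finset (C × C)).erase (u, v)).erase (v, u), g p := by ring
  rw [e]
  calc |∑ p ∈ ((univ : Finset (C × C)).erase (u, v)).erase (v, u), g p|
      ≤ ((((univ : Finset (C × C)).erase (u, v)).erase (v, u)).card : ℝ) * L := hbound
    _ = ((Fintype.card C : ℝ) ^ 2 - 2) * L := by rw [← hcard]; ring

end Vale.Agent.H83
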